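import Vale.Agent.P072.Main

namespace Vale.Agent.Results.P072.Permanence

open Vale.Agent.P072

/-- The permanence conjecture, for constant rates and for measurable rates in `[ε, ε⁻¹]`. -/
theorem result (d : ℕ) (C : Finset (Fin d → ℕ)) (R : Finset ((Fin d → ℕ) × (Fin d → ℕ)))
    (hR : ∀ r ∈ R, r.1 ∈ C ∧ r.2 ∈ C ∧ r.1 ≠ r.2) (hwr : WeaklyReversible R)
    (c : Fin d → ℝ) (hc : ∀ i, 0 < c i) :
    (∀ k : (Fin d → ℕ) × (Fin d → ℕ) → ℝ, (∀ r ∈ R, 0 < k r) →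
      Permanent (massAction R k) (posClass R c)) ∧
    (∀ ε : ℝ, 0 < ε → ∃ K : Set (Fin d → ℝ), IsCompact K ∧ K ⊆ posClass R c ∧
      ∀ k : (Fin d → ℕ) × (Fin d → ℕ) → ℝ → ℝ, (∀ r ∈ R, Measurable (k r)) →
        (∀ r ∈ R, ∀ t, 0 ≤ t → k r t ∈ Set.Icc ε ε⁻¹) →
        PermanentWith (fun t => massAction R fun r => k r t) (posClass R c) K) :=
  have _ := hR
  ⟨fun _ hk => permanence hwr hk hc, fun _ hε => strong_permanence hwr hε hc⟩

end Vale.Agent.Results.P072.Permanence
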